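import Vale.Agent.Lib.P254.BipClosureFew

/-!
# Double cones: equality case and polytope bases, in the index form used by the hand-in

Restatement of `doubleCone_eq_case` and `doubleCone_few` for a base in `ℝ^n` with `n ≠ 0`.
-/

namespace Vale.Agent.Lib.P254.H3
open MeasureTheory Set

theorem dcone_extra {n : ℕ} (hn : n ≠ 0) {K : Set (Fin n → ℝ)} (hK : IsConvexBody K)
    {q : Fin n → ℝ} (hq : q ∈ K) {a a' : Fin (n + 1) → ℝ} {s : ℝ} (hs0 : 0 < s) (hs1 : s < 1)
    (ha : a 0 ≠ 0) (hcross : (1 - s) • a + s • a' = Fin.cons 0 q) :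
    (isoConst K ≤ isoConst (solidSimplex n) →
      (isoConst K = isoConst (solidSimplex n) → IsSimplex K) →
      isoConst (convexHull ℝ (insert a (insert a'
          ((fun k : Fin n → ℝ => (Fin.cons 0 k : Fin (n + 1) → ℝ)) '' K))))
        = isoConst (solidSimplex (n + 1)) →
      IsSimplex (convexHull ℝ (insert a (insert a'
          ((fun k : Fin n → ℝ => (Fin.cons 0 k : Fin (n + 1) → ℝ)) '' K))))) ∧
    (∀ p : Fin (n + 2) → (Fin n → ℝ), K = convexHull ℝ (range p) →
      isoConst (convexHull ℝ (insert a (insert a'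
          ((fun k : Fin n → ℝ => (Fin.cons 0 k : Fin (n + 1) → ℝ)) '' K))))
        ≤ isoConst (solidSimplex (n + 1)) ∧
      (isoConst (convexHull ℝ (insert a (insert a'
          ((fun k : Fin n → ℝ => (Fin.cons 0 k : Fin (n + 1) → ℝ)) '' K))))
        = isoConst (solidSimplex (n + 1)) ↔
        IsSimplex (convexHull ℝ (insert a (insert a'
          ((fun k : Fin n → ℝ => (Fin.cons 0 k : Fin (n + 1) → ℝ)) '' K)))))) := by
  obtain ⟨m, rfl⟩ := Nat.exists_eq_succ_of_ne_zero hn
  refine ⟨fun hle heq hT => doubleCone_eq_case hK hq ha hs0 hs1 hcross hle heq hT, ?_⟩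
  intro p hKp
  subst hKp
  have hfew := doubleCone_few (q := q) (a := a) (a' := a') (s := s) p hK.2.2 hq ha hs0 hs1 hcross
  have hhull := doubleCone_hull_eq p a a'
  rw [hhull]
  exact hfew.2

end Vale.Agent.Lib.P254.H3
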