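import Vale.Agent.Lib.P254.Psd
import Vale.Agent.Lib.P254.Body

/-!
# The covariance matrix of a convex body is nonsingular
-/

namespace Vale.Agent.Lib.P254.H3
open MeasureTheory Set

variable {n : ℕ}

/-- The covariance matrix of a convex body is nonsingular. -/
theorem cov_det_ne_zero {K : Set (Fin n → ℝ)} (hK : IsConvexBody K) :
    (covMatrix K).det ≠ 0 := by
  intro hdet
  obtain ⟨v, hv0, hv⟩ := Matrix.exists_mulVec_eq_zero_iff.mpr hdet
  have hKc := hK.1
  have hVpos := vol_pos_of_body hK
  have hq : ∑ i, ∑ j, v i * covMatrix K i j * v j = 0 := by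
    have h1 : v ⬝ᵥ (covMatrix K).mulVec v = ∑ i, ∑ j, v i * covMatrix K i j * v j := by
      simp only [dotProduct, Matrix.mulVec, Finset.mul_sum, mul_assoc]
    rw [← h1, hv]
    simp
  rw [cov_quadratic hKc v] at hq
  have hint : ∫ y in K, (∑ i, v i * (y i - centroid K i)) ^ 2 = 0 := by
    rcases div_eq_zero_iff.mp hq with h | h
    · exact h
    · exact absurd h hVpos.ne'
  have hae : (fun y : Fin n → ℝ => (∑ i, v i * (y i - centroid K i)) ^ 2)
      =ᵐ[volume.restrict K] 0 :=
    (setIntegral_eq_zero_iff_of_nonneg_ae (Filter.Eventually.of_forall (fun y => sq_nonneg _))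
      (intOn_of_cont hKc _ (by fun_prop))).mp hint
  have hae' : (fun y : Fin n → ℝ => (∑ i, v i * (y i - centroid K i)) ^ 2)
      =ᵐ[volume.restrict (interior K)] 0 :=
    ae_restrict_of_ae_restrict_of_subset interior_subset hae
  have hc1 : Continuous (fun y : Fin n → ℝ => (∑ i, v i * (y i - centroid K i)) ^ 2) := by
    fun_prop
  have heq : EqOn (fun y : Fin n → ℝ => (∑ i, v i * (y i - centroid K i)) ^ 2) 0 (interior K) :=
    Measure.eqOn_open_of_ae_eq hae' isOpen_interior hc1.continuousOn continuousOn_const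
  have hlin : ∀ y ∈ interior K, ∑ i, v i * (y i - centroid K i) = 0 := by
    intro y hy
    have h := heq hy
    simp only [Pi.zero_apply] at h
    exact pow_eq_zero_iff (two_ne_zero) |>.mp h
  obtain ⟨x0, hx0⟩ := hK.2.2
  have hopen : IsOpen ((fun δ : ℝ => x0 + δ • v) ⁻¹' interior K) :=
    isOpen_interior.preimage (by fun_prop)
  have h0mem : (0:ℝ) ∈ (fun δ : ℝ => x0 + δ • v) ⁻¹' interior K := by
    simpa using hx0
  obtain ⟨ε, hε, hball⟩ := Metric.isOpen_iff.mp hopen 0 h0mem
  have hmem : x0 + (ε / 2) • v ∈ interior K := by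
    apply hball
    rw [Metric.mem_ball, Real.dist_eq, sub_zero, abs_of_pos (by positivity)]
    linarith
  have e1 := hlin x0 hx0
  have e2 := hlin _ hmem
  have e3 : ∑ i, v i * ((x0 + (ε / 2) • v) i - centroid K i)
      = ∑ i, v i * (x0 i - centroid K i) + (ε / 2) * ∑ i, v i * v i := by
    rw [Finset.mul_sum, ← Finset.sum_add_distrib]
    apply Finset.sum_congr rfl
    intro i _
    simp only [Pi.add_apply, Pi.smul_apply, smul_eq_mul]
    ring
  rw [e3, e1, zero_add] at e2
  have hsum : ∑ i, v i * v i = 0 := by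
    rcases mul_eq_zero.mp e2 with h | h
    · linarith
    · exact h
  apply hv0
  ext i
  have h := (Finset.sum_eq_zero_iff_of_nonneg (fun j _ => mul_self_nonneg (v j))).mp hsum i
    (Finset.mem_univ i)
  simpa using mul_self_eq_zero.mp h

/-- For a convex body the equation `Σ y = b` (covariance matrix, centroid) has a solution. -/
theorem exists_cov_witness {K : Set (Fin n → ℝ)} (hK : IsConvexBody K) :
    ∃ y : Fin n → ℝ, (covMatrix K).mulVec y = centroid K := by
  refine ⟨(covMatrix K)⁻¹.mulVec (centroid K), ?_⟩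
  rw [Matrix.mulVec_mulVec, Matrix.mul_nonsing_inv _ (isUnit_iff_ne_zero.mpr (cov_det_ne_zero hK)),
    Matrix.one_mulVec]

/-- `det Σ_K / |K|^2 > 0` for a convex body. -/
theorem lam_pos_body {K : Set (Fin n → ℝ)} (hK : IsConvexBody K) : 0 < lam K := by
  unfold lam
  have hVpos := vol_pos_of_body hK
  have hdet : 0 < (covMatrix K).det :=
    lt_of_le_of_ne (cov_posSemidef hK.1 hVpos).det_nonneg (Ne.symm (cov_det_ne_zero hK))
  positivity

end Vale.Agent.Lib.P254.H3
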