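import Vale.Agent.Lib.P254.Psd
import Vale.Agent.Lib.P254.Body

/-!
# The shell (dilation) inequality

For a compact set `K ⊆ ℝ^n` that is star-shaped about the origin (`s • K ⊆ K` for `0 < s < 1`)
and a linear form `ℓ`, comparing `∫ (ℓ - c)^2` over `K` and over `s • K` and letting `s → 1`
gives `(n+1)^2 (∫_K ℓ)^2 ≤ n (n+2) |K| ∫_K ℓ^2`.  In terms of the centroid `b` and the covariance
matrix `Σ` of a convex body containing the origin this reads `(w·b)^2 ≤ n (n+2) wᵀ Σ w`.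
-/

namespace Vale.Agent.Lib.P254.H3
open MeasureTheory Set
open scoped Pointwise Topology

variable {n : ℕ}

/-- integral of the square of an affine function of a linear form -/
theorem shell_int_quad {K : Set (Fin n → ℝ)} (hK : IsCompact K) (w : Fin n → ℝ) (a c : ℝ) :
    ∫ x in K, (a * (∑ i, w i * x i) - c) ^ 2
      = a ^ 2 * (∫ x in K, (∑ i, w i * x i) ^ 2) - 2 * a * c * (∫ x in K, ∑ i, w i * x i)
        + c ^ 2 * vol K := by
  have e : ∀ x : Fin n → ℝ, (a * (∑ i, w i * x i) - c) ^ 2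
      = a ^ 2 * (∑ i, w i * x i) ^ 2 - 2 * a * c * (∑ i, w i * x i) + c ^ 2 * 1 := by
    intro x; ring
  simp_rw [e]
  have i1 : IntegrableOn (fun x : Fin n → ℝ => a ^ 2 * (∑ i, w i * x i) ^ 2) K :=
    intOn_of_cont hK _ (by fun_prop)
  have i2 : IntegrableOn (fun x : Fin n → ℝ => 2 * a * c * (∑ i, w i * x i)) K :=
    intOn_of_cont hK _ (by fun_prop)
  have i3 : IntegrableOn (fun _x : Fin n → ℝ => c ^ 2 * (1:ℝ)) K :=
    intOn_of_cont hK _ (by fun_prop)
  have i12 : IntegrableOn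
      (fun x : Fin n → ℝ => a ^ 2 * (∑ i, w i * x i) ^ 2 - 2 * a * c * (∑ i, w i * x i)) K :=
    i1.sub i2
  rw [integral_add i12 i3, integral_sub i1 i2, integral_const_mul, integral_const_mul,
    integral_const_mul, vol_eq_integral]

/-- change of variables for a dilation -/
theorem shell_dilate (K : Set (Fin n → ℝ)) {s : ℝ} (hs : 0 < s) (f : (Fin n → ℝ) → ℝ) :
    ∫ x in s • K, f x = s ^ n * ∫ x in K, f (s • x) := by
  have h := Measure.setIntegral_comp_smul_of_pos (volume : Measure (Fin n → ℝ)) f K hs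
  rw [h, Module.finrank_fin_fun, smul_eq_mul, ← mul_assoc,
    mul_inv_cancel₀ (pow_ne_zero _ hs.ne'), one_mul]

/-- the quadratic in `c` obtained from `0 ≤ ∫_{K \ sK} (ℓ - c)^2` -/
theorem shell_quad_nonneg {K : Set (Fin n → ℝ)} (hK : IsCompact K)
    (hstar : ∀ s : ℝ, 0 < s → s < 1 → s • K ⊆ K) (w : Fin n → ℝ) {s : ℝ} (hs0 : 0 < s)
    (hs1 : s < 1) (c : ℝ) :
    0 ≤ (1 - s ^ (n + 2)) * (∫ x in K, (∑ i, w i * x i) ^ 2)
        - 2 * c * (1 - s ^ (n + 1)) * (∫ x in K, ∑ i, w i * x i)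
        + c ^ 2 * (1 - s ^ n) * vol K := by
  have hmono : ∫ x in s • K, (1 * (∑ i, w i * x i) - c) ^ 2
      ≤ ∫ x in K, (1 * (∑ i, w i * x i) - c) ^ 2 := by
    apply setIntegral_mono_set (intOn_of_cont hK _ (by fun_prop))
    · exact Filter.Eventually.of_forall (fun x => sq_nonneg _)
    · exact Filter.Eventually.of_forall (hstar s hs0 hs1)
  have h1 := shell_int_quad hK w 1 c
  have h2 : ∫ x in s • K, (1 * (∑ i, w i * x i) - c) ^ 2
      = s ^ n * (s ^ 2 * (∫ x in K, (∑ i, w i * x i) ^ 2)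
          - 2 * s * c * (∫ x in K, ∑ i, w i * x i) + c ^ 2 * vol K) := by
    rw [shell_dilate K hs0, ← shell_int_quad hK w s c]
    congr 1
    apply integral_congr_ae
    refine Filter.Eventually.of_forall (fun x => ?_)
    have : ∑ i, w i * (s • x) i = s * ∑ i, w i * x i := by
      rw [Finset.mul_sum]
      apply Finset.sum_congr rfl
      intro i _
      simp only [Pi.smul_apply, smul_eq_mul]
      ring
    simp only [this, one_mul]
  rw [h1, h2] at hmono
  have key : (1 - s ^ (n + 2)) * (∫ x in K, (∑ i, w i * x i) ^ 2)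
        - 2 * c * (1 - s ^ (n + 1)) * (∫ x in K, ∑ i, w i * x i)
        + c ^ 2 * (1 - s ^ n) * vol K
      = (1 ^ 2 * (∫ x in K, (∑ i, w i * x i) ^ 2) - 2 * 1 * c * (∫ x in K, ∑ i, w i * x i)
          + c ^ 2 * vol K)
        - s ^ n * (s ^ 2 * (∫ x in K, (∑ i, w i * x i) ^ 2)
          - 2 * s * c * (∫ x in K, ∑ i, w i * x i) + c ^ 2 * vol K) := by
    ring
  rw [key]
  linarith

/-- discriminant form, for a fixed `s ∈ (0,1)` -/
theorem shell_disc {K : Set (Fin n → ℝ)} (hK : IsCompact K)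
    (hstar : ∀ s : ℝ, 0 < s → s < 1 → s • K ⊆ K) (w : Fin n → ℝ) {s : ℝ} (hs0 : 0 < s)
    (hs1 : s < 1) :
    ((1 - s ^ (n + 1)) * (∫ x in K, ∑ i, w i * x i)) ^ 2
      ≤ ((1 - s ^ n) * vol K) * ((1 - s ^ (n + 2)) * (∫ x in K, (∑ i, w i * x i) ^ 2)) := by
  have h := discrim_le_zero (a := (1 - s ^ n) * vol K)
    (b := -(2 * (1 - s ^ (n + 1)) * (∫ x in K, ∑ i, w i * x i)))
    (c := (1 - s ^ (n + 2)) * (∫ x in K, (∑ i, w i * x i) ^ 2)) (fun c => by
      have := shell_quad_nonneg hK hstar w hs0 hs1 c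
      nlinarith [this])
  unfold discrim at h
  nlinarith [h]

/-- the shell inequality for integrals -/
theorem shell_int_ineq {K : Set (Fin n → ℝ)} (hK : IsCompact K)
    (hstar : ∀ s : ℝ, 0 < s → s < 1 → s • K ⊆ K) (w : Fin n → ℝ) :
    ((n:ℝ) + 1) ^ 2 * (∫ x in K, ∑ i, w i * x i) ^ 2
      ≤ (n:ℝ) * ((n:ℝ) + 2) * (vol K * ∫ x in K, (∑ i, w i * x i) ^ 2) := by
  set m1 := ∫ x in K, ∑ i, w i * x i with hm1
  set m2 := ∫ x in K, (∑ i, w i * x i) ^ 2 with hm2
  set V := vol K with hV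
  let F : ℝ → ℝ := fun s => (∑ i ∈ Finset.range n, s ^ i) * (∑ i ∈ Finset.range (n + 2), s ^ i)
      * (V * m2) - (∑ i ∈ Finset.range (n + 1), s ^ i) ^ 2 * m1 ^ 2
  have hpos : ∀ s : ℝ, 0 < s → s < 1 → 0 ≤ F s := by
    intro s hs0 hs1
    have hd := shell_disc hK hstar w hs0 hs1
    rw [← hm1, ← hm2, ← hV] at hd
    have g0 : (1 - s) * ∑ i ∈ Finset.range n, s ^ i = 1 - s ^ n := mul_neg_geom_sum s n
    have g1 : (1 - s) * ∑ i ∈ Finset.range (n + 1), s ^ i = 1 - s ^ (n + 1) :=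
      mul_neg_geom_sum s (n + 1)
    have g2 : (1 - s) * ∑ i ∈ Finset.range (n + 2), s ^ i = 1 - s ^ (n + 2) :=
      mul_neg_geom_sum s (n + 2)
    rw [← g0, ← g1, ← g2] at hd
    have h1s : 0 < (1 - s) ^ 2 := by
      have : 0 < 1 - s := by linarith
      positivity
    have hfac : (1 - s) ^ 2 * F s
        = ((1 - s) * ∑ i ∈ Finset.range n, s ^ i) * V
            * (((1 - s) * ∑ i ∈ Finset.range (n + 2), s ^ i) * m2)
          - (((1 - s) * ∑ i ∈ Finset.range (n + 1), s ^ i) * m1) ^ 2 := by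
      simp only [F]
      ring
    have hnn : 0 ≤ (1 - s) ^ 2 * F s := by
      rw [hfac]; linarith
    exact nonneg_of_mul_nonneg_right hnn h1s
  have hcont : Continuous F := by
    simp only [F]
    fun_prop
  have hlim : Filter.Tendsto F (𝓝[<] (1:ℝ)) (𝓝 (F 1)) :=
    (hcont.tendsto 1).mono_left nhdsWithin_le_nhds
  have hev : ∀ᶠ s in 𝓝[<] (1:ℝ), 0 ≤ F s := by
    filter_upwards [Ioo_mem_nhdsLT (zero_lt_one : (0:ℝ) < 1)] with s hs
    exact hpos s hs.1 hs.2
  have hF1 : 0 ≤ F 1 := ge_of_tendsto hlim hev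
  simp only [F, one_pow, Finset.sum_const, Finset.card_range, nsmul_eq_mul, mul_one] at hF1
  push_cast at hF1
  nlinarith [hF1]

/-- **Shell inequality**: for a convex body `K ∋ 0` with centroid `b` and covariance matrix `Σ`,
`(w·b)^2 ≤ n (n+2) wᵀ Σ w` for every `w`. -/
theorem shell_ineq_dot {n : ℕ} {K : Set (Fin n → ℝ)} (hK : IsConvexBody K)
    (h0 : (0 : Fin n → ℝ) ∈ K) (w : Fin n → ℝ) :
    (w ⬝ᵥ centroid K) ^ 2 ≤ (n : ℝ) * ((n : ℝ) + 2) * (w ⬝ᵥ (covMatrix K).mulVec w) := by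
  have hKc : IsCompact K := hK.1
  have hVpos : 0 < vol K := vol_pos_of_body hK
  have hstar : ∀ s : ℝ, 0 < s → s < 1 → s • K ⊆ K := by
    intro s hs0 hs1 x hx
    obtain ⟨y, hy, rfl⟩ := hx
    exact hK.2.1.smul_mem_of_zero_mem h0 hy ⟨hs0.le, hs1.le⟩
  have hshell := shell_int_ineq hKc hstar w
  set m1 := ∫ x in K, ∑ i, w i * x i with hm1
  set m2 := ∫ x in K, (∑ i, w i * x i) ^ 2 with hm2
  set V := vol K with hV
  set L := ∑ i, w i * centroid K i with hL
  -- first moment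
  have e1 : m1 = L * V := by
    rw [hm1, integral_finsetSum _ (fun i _ => intOn_of_cont hKc _ (by fun_prop)), hL,
      Finset.sum_mul]
    apply Finset.sum_congr rfl
    intro i _
    rw [integral_const_mul, centroid, mul_assoc, div_mul_cancel₀ _ hVpos.ne']
  -- quadratic form
  have eQ : w ⬝ᵥ (covMatrix K).mulVec w = (m2 - 2 * L * m1 + L ^ 2 * V) / V := by
    have h1 : w ⬝ᵥ (covMatrix K).mulVec w = ∑ i, ∑ j, w i * covMatrix K i j * w j := by
      simp only [dotProduct, Matrix.mulVec, Finset.mul_sum, mul_assoc]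
    rw [h1, cov_quadratic hKc w]
    congr 1
    have h2 := shell_int_quad hKc w 1 L
    have h3 : ∀ y : Fin n → ℝ, (∑ i, w i * (y i - centroid K i)) ^ 2
        = (1 * (∑ i, w i * y i) - L) ^ 2 := by
      intro y
      congr 1
      rw [hL, one_mul, ← Finset.sum_sub_distrib]
      apply Finset.sum_congr rfl
      intro i _
      ring
    simp_rw [h3]
    rw [h2]
    ring
  have eL : w ⬝ᵥ centroid K = L := by
    simp only [dotProduct, hL]
  rw [eL, eQ, e1]
  rw [e1] at hshell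
  have hV2 : 0 < V ^ 2 := by positivity
  have hN : (0:ℝ) ≤ n := Nat.cast_nonneg n
  -- m2 ≥ ... from the shell inequality
  have hm2' : ((n:ℝ) + 1) ^ 2 * L ^ 2 * V ≤ (n:ℝ) * ((n:ℝ) + 2) * m2 := by
    have : ((n:ℝ) + 1) ^ 2 * L ^ 2 * V * V ≤ (n:ℝ) * ((n:ℝ) + 2) * m2 * V := by
      nlinarith [hshell]
    exact le_of_mul_le_mul_right this hVpos
  have hgoal : L ^ 2 * V ≤ (n : ℝ) * ((n : ℝ) + 2) * (m2 - 2 * L * (L * V) + L ^ 2 * V) := by
    nlinarith [hm2']
  rw [mul_div_assoc', le_div_iff₀ hVpos]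
  linarith
end Vale.Agent.Lib.P254.H3
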