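import Vale.Agent.Lib.P254.H27.Step
import Vale.Agent.Lib.P254.H3.Shell
import Vale.Agent.Lib.P254.H3.CovWitness
import Vale.Agent.Lib.P254.TowerGeom

/-!
# Bipyramids (double cones) over arbitrary convex bodies

For a convex body `K ⊆ ℝ^n`, a point `q ∈ K` and two apexes `a, a' ∈ ℝ^(n+1)` whose segment
crosses the base hyperplane `x_0 = 0` at `(0, q)`, the body `T = conv({a, a'} ∪ {0} × K)` satisfies
`det Σ_T / |T|^2 = c_n (det Σ_K / |K|^2) (1 - 2 s (1 - s) (n (n + 2) - ρ) / ((n + 1) (n + 2)))`,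
`ρ = (b_K - q)ᵀ Σ_K⁻¹ (b_K - q) ∈ [0, n (n + 2)]`.
-/

namespace Vale.Agent.Lib.P254.H3
open MeasureTheory Set

variable {n : ℕ}

/-- the translate `K - q` is a convex body -/
theorem shiftSet_body (q : Fin n → ℝ) {K : Set (Fin n → ℝ)} (hK : IsConvexBody K) :
    IsConvexBody {y : Fin n → ℝ | y + q ∈ K} :=
  ⟨shift_compact q hK.1, shift_convex q hK.2.1, shift_interior q hK.2.2⟩

theorem shiftSet_eq_image (q : Fin n → ℝ) (K : Set (Fin n → ℝ)) :
    {y : Fin n → ℝ | y + q ∈ K} = affMap (1 : Matrix (Fin n) (Fin n) ℝ) (-q) '' K := by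
  ext y
  constructor
  · intro h
    refine ⟨y + q, h, ?_⟩
    simp [affMap]
  · rintro ⟨x, hx, rfl⟩
    show affMap (1 : Matrix (Fin n) (Fin n) ℝ) (-q) x + q ∈ K
    simpa [affMap] using hx

theorem shiftSet_lam (q : Fin n → ℝ) {K : Set (Fin n → ℝ)} (hK : IsConvexBody K) :
    lam {y : Fin n → ℝ | y + q ∈ K} = lam K := by
  rw [shiftSet_eq_image]
  exact affine_lam (one_det_ne n) _ hK.1 (vol_pos_of_body hK).ne'

theorem shiftSet_cov (q : Fin n → ℝ) {K : Set (Fin n → ℝ)} (hK : IsConvexBody K) :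
    covMatrix {y : Fin n → ℝ | y + q ∈ K} = covMatrix K := by
  rw [shiftSet_eq_image, affine_cov (one_det_ne n) _ hK.1 (vol_pos_of_body hK).ne']
  simp

theorem shiftSet_centroid (q : Fin n → ℝ) {K : Set (Fin n → ℝ)} (hK : IsConvexBody K) :
    centroid {y : Fin n → ℝ | y + q ∈ K} = fun i => centroid K i - q i := by
  funext i
  rw [shiftSet_eq_image, affine_centroid (one_det_ne n) _ hK.1 (vol_pos_of_body hK).ne' i,
    affMap_apply]
  simp [Matrix.one_apply, sub_eq_add_neg]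

/-- General bipyramid formula with the inertia parameter `ρ = b·y`, `Σ y = b`, for a convex body
containing the origin (the base point of the axis). -/
theorem bip_general {K : Set (Fin n → ℝ)} (hK : IsConvexBody K) (h0 : (0 : Fin n → ℝ) ∈ K)
    {t : ℝ} (ht : 0 < t) (y : Fin n → ℝ) (hy : (covMatrix K).mulVec y = centroid K) :
    0 ≤ centroid K ⬝ᵥ y ∧ centroid K ⬝ᵥ y ≤ (n:ℝ) * ((n:ℝ) + 2) ∧
      lam (bipyramid t K) = cn n * lam K *
        (1 - 2 * t / (1 + t) ^ 2 *
          (((n:ℝ) * ((n:ℝ) + 2) - centroid K ⬝ᵥ y) / (((n:ℝ) + 1) * ((n:ℝ) + 2)))) := by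
  have hVpos := vol_pos_of_body hK
  have hpsd := cov_posSemidef hK.1 hVpos
  have hsh := shell_ineq_dot hK h0 y
  rw [hy] at hsh
  have hsymm : y ⬝ᵥ centroid K = centroid K ⬝ᵥ y := dotProduct_comm _ _
  rw [hsymm] at hsh
  have hρ0 : 0 ≤ centroid K ⬝ᵥ y := by
    have := hpsd.dotProduct_mulVec_nonneg y
    rw [hy] at this
    simpa [hsymm] using this
  have hρ1 : centroid K ⬝ᵥ y ≤ (n:ℝ) * ((n:ℝ) + 2) := by
    by_contra hcon
    have hcon' : (n:ℝ) * ((n:ℝ) + 2) < centroid K ⬝ᵥ y := not_le.mp hcon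
    have hN : (0:ℝ) ≤ (n:ℝ) * ((n:ℝ) + 2) := by positivity
    nlinarith
  refine ⟨hρ0, hρ1, ?_⟩
  have h1 : ((n:ℝ) + 1) ≠ 0 := by positivity
  have h2 : ((n:ℝ) + 2) ≠ 0 := by positivity
  have hD : centroid K ⬝ᵥ y = ((n:ℝ) + 2) * ((n:ℝ) - ((n:ℝ) + 1) *
      (((n:ℝ) * ((n:ℝ) + 2) - centroid K ⬝ᵥ y) / (((n:ℝ) + 1) * ((n:ℝ) + 2)))) := by
    field_simp
    ring
  rw [bip_lam_witness ht hK.1 hVpos.ne' y hy hD]
  ring

/-- the shear matrix with first column `a - c` and the other columns the unit vectors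
`e_1, …, e_n` -/
def shearMat (n : ℕ) (a c : Fin (n + 1) → ℝ) : Matrix (Fin (n + 1)) (Fin (n + 1)) ℝ :=
  Matrix.of fun r j => Fin.cases (a r - c r) (fun i : Fin n => if r = i.succ then (1:ℝ) else 0) j

theorem shearMat_mulVec_zero (a c x : Fin (n + 1) → ℝ) :
    (shearMat n a c).mulVec x 0 = (a 0 - c 0) * x 0 := by
  simp [Matrix.mulVec, dotProduct, Fin.sum_univ_succ, shearMat, (Fin.succ_ne_zero _).symm]

theorem shearMat_mulVec_succ (a c x : Fin (n + 1) → ℝ) (k : Fin n) :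
    (shearMat n a c).mulVec x k.succ = (a k.succ - c k.succ) * x 0 + x k.succ := by
  simp [Matrix.mulVec, dotProduct, Fin.sum_univ_succ, shearMat, Fin.succ_inj]

theorem shearMat_det (a c : Fin (n + 1) → ℝ) : (shearMat n a c).det = a 0 - c 0 := by
  rw [Matrix.det_succ_row_zero, Fin.sum_univ_succ]
  have hz : ∀ i : Fin n, shearMat n a c 0 i.succ = 0 := by
    intro i
    simp [shearMat, (Fin.succ_ne_zero _).symm]
  have h0 : shearMat n a c 0 0 = a 0 - c 0 := by simp [shearMat]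
  have hsub : (shearMat n a c).submatrix Fin.succ (Fin.succAbove 0)
      = (1 : Matrix (Fin n) (Fin n) ℝ) := by
    ext i j
    simp [shearMat, Matrix.one_apply, Fin.succ_inj]
  simp only [hz, mul_zero, zero_mul, Finset.sum_const_zero, add_zero, h0, Fin.val_zero, pow_zero,
    one_mul, hsub, Matrix.det_one, mul_one]

/-- The double cone over `K` with apexes `a, a'` (segment crossing the base at `(0, q)`) is an
affine image of the standard bipyramid over `K - q`. -/
theorem dcone_eq_image {K : Set (Fin n → ℝ)} (hc : Convex ℝ K) {q : Fin n → ℝ} (hq : q ∈ K)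
    {a a' : Fin (n + 1) → ℝ} {s : ℝ} (hs0 : 0 < s) (hs1 : s < 1)
    (hcross : (1 - s) • a + s • a' = Fin.cons 0 q) :
    convexHull ℝ (insert a (insert a' ((fun k : Fin n → ℝ => (Fin.cons 0 k : Fin (n + 1) → ℝ)) '' K)))
      = affMap (shearMat n a (Fin.cons 0 q)) (Fin.cons 0 q) ''
          bipyramid ((1 - s) / s) {y : Fin n → ℝ | y + q ∈ K} := by
  have ht : 0 < (1 - s) / s := div_pos (by linarith) hs0
  have hcq : Convex ℝ {y : Fin n → ℝ | y + q ∈ K} := shift_convex q hc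
  have h0 : (0 : Fin n → ℝ) ∈ convexHull ℝ {y : Fin n → ℝ | y + q ∈ K} := by
    rw [hcq.convexHull_eq]
    show (0 : Fin n → ℝ) + q ∈ K
    simpa using hq
  have hb := bipyramid_hull ht {y : Fin n → ℝ | y + q ∈ K} h0
  rw [hcq.convexHull_eq] at hb
  rw [hb, affMap_image_convexHull, image_insert_eq, image_insert_eq]
  -- coordinates of the affine map
  have hm0 : ∀ x : Fin (n + 1) → ℝ,
      affMap (shearMat n a (Fin.cons 0 q)) (Fin.cons 0 q) x 0 = a 0 * x 0 := by
    intro x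
    show (shearMat n a (Fin.cons 0 q)).mulVec x 0 + (Fin.cons 0 q : Fin (n + 1) → ℝ) 0 = _
    rw [shearMat_mulVec_zero]
    simp
  have hms : ∀ (x : Fin (n + 1) → ℝ) (k : Fin n),
      affMap (shearMat n a (Fin.cons 0 q)) (Fin.cons 0 q) x k.succ
        = (a k.succ - q k) * x 0 + x k.succ + q k := by
    intro x k
    show (shearMat n a (Fin.cons 0 q)).mulVec x k.succ + (Fin.cons 0 q : Fin (n + 1) → ℝ) k.succ = _
    rw [shearMat_mulVec_succ]
    simp
  have hc0 : (1 - s) * a 0 + s * a' 0 = 0 := by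
    have := congrFun hcross 0
    simpa using this
  have hcs : ∀ k : Fin n, (1 - s) * a k.succ + s * a' k.succ = q k := by
    intro k
    have := congrFun hcross k.succ
    simpa using this
  have e1 : affMap (shearMat n a (Fin.cons 0 q)) (Fin.cons 0 q) (apexUp n) = a := by
    ext r
    refine Fin.cases ?_ (fun k => ?_) r
    · rw [hm0]; simp [apexUp]
    · rw [hms]; simp [apexUp]
  have e2 : affMap (shearMat n a (Fin.cons 0 q)) (Fin.cons 0 q) (apexDown n ((1 - s) / s)) = a' := by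
    ext r
    refine Fin.cases ?_ (fun k => ?_) r
    · rw [hm0]
      simp only [apexDown, Fin.cons_zero]
      field_simp
      linarith
    · rw [hms]
      simp only [apexDown, Fin.cons_zero, Fin.cons_succ, Pi.zero_apply]
      have := hcs k
      field_simp
      linarith
  have e3 : affMap (shearMat n a (Fin.cons 0 q)) (Fin.cons 0 q) ''
        (consL n '' {y : Fin n → ℝ | y + q ∈ K})
      = (fun k : Fin n → ℝ => (Fin.cons 0 k : Fin (n + 1) → ℝ)) '' K := by
    ext x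
    constructor
    · rintro ⟨_, ⟨y, hy, rfl⟩, rfl⟩
      refine ⟨y + q, hy, ?_⟩
      ext r
      refine Fin.cases ?_ (fun k => ?_) r
      · rw [hm0]; simp [consL]
      · rw [hms]; simp [consL]
    · rintro ⟨k, hk, rfl⟩
      refine ⟨consL n (k - q), ⟨k - q, ?_, rfl⟩, ?_⟩
      · show k - q + q ∈ K
        simpa using hk
      · ext r
        refine Fin.cases ?_ (fun j => ?_) r
        · rw [hm0]; simp [consL]
        · rw [hms]; simp [consL]
  rw [e1, e2, e3]

/-- **Bipyramids over arbitrary convex bodies.** -/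
theorem dcone_main {K : Set (Fin n → ℝ)} (hK : IsConvexBody K) {q : Fin n → ℝ} (hq : q ∈ K) :
    ∃ (y : Fin n → ℝ) (ρ : ℝ), (covMatrix K).mulVec y = (fun i => centroid K i - q i) ∧
      ρ = (fun i => centroid K i - q i) ⬝ᵥ y ∧ 0 ≤ ρ ∧ ρ ≤ (n:ℝ) * ((n:ℝ) + 2) ∧
      ∀ (a a' : Fin (n + 1) → ℝ) (s : ℝ), 0 < s → s < 1 → a 0 ≠ 0 →
        (1 - s) • a + s • a' = Fin.cons 0 q →
        IsConvexBody (convexHull ℝ (insert a (insert a'
          ((fun k : Fin n → ℝ => (Fin.cons 0 k : Fin (n + 1) → ℝ)) '' K)))) ∧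
        lam (convexHull ℝ (insert a (insert a'
          ((fun k : Fin n → ℝ => (Fin.cons 0 k : Fin (n + 1) → ℝ)) '' K))))
          = cn n * lam K * (1 - 2 * s * (1 - s) *
              (((n:ℝ) * ((n:ℝ) + 2) - ρ) / (((n:ℝ) + 1) * ((n:ℝ) + 2)))) := by
  have hKq : IsConvexBody {y : Fin n → ℝ | y + q ∈ K} := shiftSet_body q hK
  have h0 : (0 : Fin n → ℝ) ∈ {y : Fin n → ℝ | y + q ∈ K} := by
    show (0 : Fin n → ℝ) + q ∈ K
    simpa using hq
  obtain ⟨y, hy⟩ := exists_cov_witness hKq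
  have hy' : (covMatrix K).mulVec y = (fun i => centroid K i - q i) := by
    rw [← shiftSet_cov q hK, ← shiftSet_centroid q hK]; exact hy
  refine ⟨y, (fun i => centroid K i - q i) ⬝ᵥ y, hy', rfl, ?_, ?_, ?_⟩
  · have := (bip_general hKq h0 (t := 1) one_pos y hy).1
    rwa [shiftSet_centroid q hK] at this
  · have := (bip_general hKq h0 (t := 1) one_pos y hy).2.1
    rwa [shiftSet_centroid q hK] at this
  · intro a a' s hs0 hs1 ha hcross
    have ht : 0 < (1 - s) / s := div_pos (by linarith) hs0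
    have hdet : (shearMat n a (Fin.cons 0 q)).det ≠ 0 := by
      rw [shearMat_det]; simpa using ha
    rw [dcone_eq_image hK.2.1 hq hs0 hs1 hcross]
    refine ⟨affine_body hdet _ (bipyramid_body ht hKq h0), ?_⟩
    rw [affine_lam hdet _ (isCompact_bipyramid ht hKq.1)
      (bip_vol_ne ht hKq.1 (vol_pos_of_body hKq).ne'),
      (bip_general hKq h0 ht y hy).2.2, shiftSet_lam q hK, shiftSet_centroid q hK]
    have hs : s ≠ 0 := hs0.ne'
    have e : 2 * ((1 - s) / s) / (1 + (1 - s) / s) ^ 2 = 2 * s * (1 - s) := by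
      field_simp
      ring
    rw [e]

end Vale.Agent.Lib.P254.H3
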